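import Vale.Agent.P032.S5.H767.Raw

/-!
# P032: the product rule for two circles, and its closure form (swap rule R2)

`product` : `|y - z| = 1`, `S(z)` carries the colour `t` near `p`, `p ≠ y`, `p + y ≠ 2 z`: the point
`y + (p - z)` of `S(y)` does not have the colour `t`.
`line_cl` : closure form of `line_free`: if `p` is a limit of points near which `S(q)` carries all the
colours of `P`, then every `w` with `|w - p| = 1` off the line `pq` is a limit of points without the
colours of `P`; so `T w` is not contained in `P`.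
-/

open Set Filter Topology Metric

noncomputable section

namespace Vale.Agent.P032.H187

open Vale.Agent.P032.Six Vale.Agent.P032.S5.H767

variable {k : ℕ} {U : Fin k → Set ℂ} {T : ℂ → Set (Fin k)}

/-- the open part of `S(z)` which carries all the colours of `P` -/
def Cr (U : Fin k → Set ℂ) (z : ℂ) (P : Set (Fin k)) : Set ℂ :=
  {a | dist a z = 1 ∧ ∀ᶠ q in 𝓝[sphere z 1] a, P ⊆ Pal U q}

theorem Cr_mono {z : ℂ} {P Q : Set (Fin k)} (h : Q ⊆ P) : Cr U z P ⊆ Cr U z Q :=
  fun _ ha => ⟨ha.1, ha.2.mono fun _ hq => h.trans hq⟩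

theorem Ex_Cr (h : Irr U T) {z : ℂ} {P : Set (Fin k)} : Ex T z P ⊆ Cr U z P :=
  fun _ ha => ⟨ha.1, ha.2.mono fun q hq => by rw [← hq]; exact h.sub q⟩

/-- `S(z)` carries `t` near `a` in the `T` sense -/
theorem Cr_of_T (h : Irr U T) {z a : ℂ} {P : Set (Fin k)} (ha : dist a z = 1)
    (hJ : ∀ᶠ q in 𝓝[sphere z 1] a, P ⊆ T q) : a ∈ Cr U z P :=
  ⟨ha, hJ.mono fun q hq => hq.trans (h.sub q)⟩

/-- the germ of the product rule -/
theorem Cr_line (h : Mx U) {z a v : ℂ} {P : Set (Fin k)} {t : Fin k} (ha : a ∈ Cr U z P) (ht : t ∈ P)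
    (hv : dist a v = 1) (h1 : v ≠ z) (h2 : v + z ≠ 2 * a) : t ∉ Pal U v := by
  intro htv
  rcases h.partner_line ha.1 (ha.2.mono fun q hq => hq ht) hv htv with h3 | h3
  · exact h1 h3
  · exact h2 h3

/-- **Product rule.** -/
theorem product (h : Mx U) {z y p : ℂ} {P : Set (Fin k)} {t : Fin k} (hzy : dist y z = 1)
    (hp : p ∈ Cr U z P) (ht : t ∈ P) (h1 : p ≠ y) (h2 : p + y ≠ 2 * z) :
    t ∉ Pal U (y + (p - z)) := by
  refine Cr_line h hp ht ?_ ?_ ?_
  · rw [dist_eq_norm] at hzy ⊢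
    rw [← hzy, ← norm_neg]; congr 1; ring
  · intro h3; exact h2 (by linear_combination h3)
  · intro h3; exact h1 (by linear_combination -h3)

/-- the product rule with directions in units of 60 degrees -/
theorem product_pt (h : Mx U) {z y : ℂ} {u : ℝ} {P : Set (Fin k)} {t : Fin k} (hzy : dist y z = 1)
    (hp : pt z u ∈ Cr U z P) (ht : t ∈ P) (h1 : pt z u ≠ y) (h2 : pt z u + y ≠ 2 * z) :
    t ∉ Pal U (pt y u) := by
  have h3 := product h hzy hp ht h1 h2
  have h4 : y + (pt z u - z) = pt y u := by unfold pt; ring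
  rwa [h4] at h3

/-- the sixty degree rule -/
theorem sixty (h : Mx U) {z a b : ℂ} {P : Set (Fin k)} {t : Fin k} (ha : a ∈ Cr U z P) (ht : t ∈ P)
    (hb : dist b z = 1) (hab : dist a b = 1) : t ∉ Pal U b := by
  obtain ⟨h1, h2⟩ := tri ha.1 hb
  exact Cr_line h ha ht hab (fun h3 => h1 h3.symm) fun h3 => h2 (by rw [← h3]; ring)

/-- **Closure form of the product rule**: colours carried on arcs which accumulate at `p`. -/
theorem line_cl (h : Mx U) {q p w : ℂ} {P : Set (Fin k)} (hp : p ∈ closure (Cr U q P))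
    (hw : dist p w = 1) (h1 : w ≠ q) (h2 : w + q ≠ 2 * p) :
    ∃ᶠ w' in 𝓝 w, ∀ t ∈ P, t ∉ Pal U w' := by
  rw [frequently_iff]
  intro N hN
  have hc1 : Tendsto (fun a : ℂ => w + (a - p)) (𝓝 p) (𝓝 w) := by
    have h3 : Continuous fun a : ℂ => w + (a - p) := by fun_prop
    have h4 := h3.tendsto p
    simpa using h4
  have hc2 : ∀ᶠ a in 𝓝 p, w + (a - p) ≠ q := hc1.eventually (isOpen_ne.mem_nhds h1)
  have hc3 : ∀ᶠ a in 𝓝 p, w + (a - p) + q - 2 * a ≠ 0 := by
    have h3 : Tendsto (fun a : ℂ => w + (a - p) + q - 2 * a) (𝓝 p) (𝓝 (w + q - 2 * p)) := by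
      have h4 : Continuous fun a : ℂ => w + (a - p) + q - 2 * a := by fun_prop
      have h5 := h4.tendsto p
      simpa using h5
    exact h3.eventually (isOpen_ne.mem_nhds (sub_ne_zero.2 h2))
  obtain ⟨a, ⟨⟨haN, ha1⟩, ha2⟩, haC⟩ :=
    mem_closure_iff_nhds.1 hp _ (inter_mem (inter_mem (hc1.eventually hN) hc2) hc3)
  refine ⟨w + (a - p), haN, fun t ht => Cr_line h haC ht ?_ ha1 fun h3 => ha2 ?_⟩
  · rw [dist_eq_norm] at hw ⊢
    rw [← hw]; congr 1; ring
  · linear_combination h3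

/-- **(R2)** if the exact arcs of `S(q)` with colours `P` accumulate at `p`, then no point `w` of `S(p)`
off the line `pq` has its palette in `P` -/
theorem R2 (h : Irr U T) {q p w : ℂ} {P : Set (Fin k)} (hp : p ∈ closure (Cr U q P))
    (hw : dist p w = 1) (h1 : w ≠ q) (h2 : w + q ≠ 2 * p) : ¬ T w ⊆ P := by
  intro hsub
  obtain ⟨w', hw', hT⟩ := ((line_cl h.mx hp hw h1 h2).and_eventually (h.nhd w)).exists
  obtain ⟨i, hi⟩ := h.ne w'
  exact hw' i (hsub (hT hi)) (h.sub w' hi)

/-- **(R2)**, two circles: exact arcs of `S(q)` with colours `P` accumulate at `p` and `|p - q| = 1`: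
near `q` no point `w ≠ q` of `S(p)` has its palette in `P` -/
theorem R2_near (h : Irr U T) {q p : ℂ} {P : Set (Fin k)} (hp : p ∈ closure (Cr U q P))
    (hpq : dist p q = 1) : ∀ᶠ w in 𝓝[≠] q, dist p w = 1 → ¬ T w ⊆ P := by
  have h3 : ∀ᶠ w in 𝓝 q, w + q - 2 * p ≠ 0 := by
    have h4 : Tendsto (fun w : ℂ => w + q - 2 * p) (𝓝 q) (𝓝 (q + q - 2 * p)) := by
      have h5 : Continuous fun w : ℂ => w + q - 2 * p := by fun_prop
      exact h5.tendsto q
    refine h4.eventually (isOpen_ne.mem_nhds fun h5 => ?_)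
    have h6 : p = q := by linear_combination -h5 / 2
    rw [h6, dist_self] at hpq
    exact zero_ne_one hpq
  filter_upwards [mem_nhdsWithin_of_mem_nhds h3, self_mem_nhdsWithin] with w h4 h5 h6
  exact R2 h hp h6 h5 fun h7 => h4 (by rw [h7]; ring)

/-- two points at distance one do not both have exact arcs of the other circle with the same colours
near them -/
theorem R2_arcs (h : Irr U T) {q p : ℂ} {P : Set (Fin k)} (hp : p ∈ closure (Cr U q P))
    (hpq : dist p q = 1) (hq : q ∈ closure (Ex T p P \ {q})) : False := by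
  have h1 := R2_near h hp hpq
  rw [eventually_nhdsWithin_iff] at h1
  obtain ⟨w, hw, hwE, hwq⟩ := mem_closure_iff_nhds.1 hq _ h1
  have h2 : T w ⊆ P := (ex_self hwE).subset
  exact hw hwq (by rw [dist_comm]; exact hwE.1) h2

end Vale.Agent.P032.H187
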