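import Vale.Agent.P032.H989.HPair
import Vale.Agent.P032.H780.Special
import Vale.Agent.P032.H338.Letters

/-!
# P032: two two-pair points at distance one with a common pair, local facts

`z` has the pairs `ab`, `cd`, `y` has the pairs `ab`, `ef`, `|y - z| = 1`.
`HH.apex` : a common point `p` of the two circles with at most three colours is in the closure of
the `cd`-arcs of `S(z)` or in the closure of the `ef`-arcs of `S(y)`.
-/

open Set Filter Topology Metric

noncomputable section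

namespace Vale.Agent.P032.H187

open Vale.Agent.P032.Six Vale.Agent.P032.S5.H767 Vale.Agent.P032.H338 Vale.Agent.P032.H780
  Vale.Agent.P032.S5.H122 Vale.Agent.P032.Sweep

variable {U : Fin 6 → Set ℂ} {T : ℂ → Set (Fin 6)} {z y p : ℂ} {a b c d e f : Fin 6}

theorem DPt.four187 (hz : DPt T z a b c d) : (T z).ncard = 4 := by
  rw [hz.pal, Set.ncard_insert_of_notMem (by simp [hz.ab, hz.ac, hz.ad]),
    Set.ncard_insert_of_notMem (by simp [hz.bc, hz.bd]), Set.ncard_pair hz.cd]

/-- **letters at a two-pair point**, every point of the circle -/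
theorem letters187 (h : Irr U T) (hm : Mn338 U T) (hz : DPt T z a b c d) {q : ℂ}
    (hq : dist q z = 1) : (∃ i ∈ T q, i ∉ T z) ∨ {a, b} ⊆ T q ∨ {c, d} ⊆ T q := by
  obtain ⟨P, Q, hPQ, hd, hP, hQ, h1, h2⟩ := pairs_four h hm (DPt.four187 hz)
  obtain ⟨g1, hg1⟩ := hz.arc1
  obtain ⟨g2, hg2⟩ := hz.arc2
  have e1 : T g1 = {a, b} := hg1.mem
  have e2 : T g2 = {c, d} := hg2.mem
  have k1 := h1 g1 hg1.1 (by
    rw [e1, hz.pal]; intro m hm; rcases hm with rfl | hm
    · simp
    · rw [mem_singleton_iff] at hm; subst hm; simp) (by rw [e1]; exact Set.ncard_pair hz.ab)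
  have k2 := h1 g2 hg2.1 (by
    rw [e2, hz.pal]; intro m hm; rcases hm with rfl | hm
    · simp
    · rw [mem_singleton_iff] at hm; subst hm; simp) (by rw [e2]; exact Set.ncard_pair hz.cd)
  rw [e1] at k1
  rw [e2] at k2
  have hne : ({a, b} : Set (Fin 6)) ≠ {c, d} := by
    intro hh
    have : a ∈ ({c, d} : Set (Fin 6)) := by rw [← hh]; simp
    rcases this with h3 | h3
    · exact hz.ac h3
    · exact hz.ad h3
  rcases h2 q hq with h3 | h3 | h3
  · exact Or.inl h3
  · rcases k1 with k1 | k1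
    · exact Or.inr (Or.inl (by rw [k1]; exact h3))
    · rcases k2 with k2 | k2
      · exact Or.inr (Or.inr (by rw [k2]; exact h3))
      · exact absurd (k1.trans k2.symm) hne
  · rcases k1 with k1 | k1
    · rcases k2 with k2 | k2
      · exact absurd (k1.trans k2.symm) hne
      · exact Or.inr (Or.inr (by rw [k2]; exact h3))
    · exact Or.inr (Or.inl (by rw [k1]; exact h3))

/-- near a two-pair point `z` on the circle of `p`, `|T p| ≤ 3`, at least two colours of `z` are
missing in `T p` -/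
theorem three_sub187 (h : Irr U T) (hz : DPt T z a b c d) (hp : dist z p = 1)
    (h3 : (T p).ncard ≤ 3) (t : Fin 6) : ∃ i ∈ T z, i ∉ T p ∧ i ≠ t := by
  by_contra hcon
  push Not at hcon
  refine h.no_common hz (z := p) (t := t) hp ?_
  filter_upwards [mem_nhdsWithin_of_mem_nhds (h.nhd z), self_mem_nhdsWithin] with w h1 h2
  obtain ⟨i, hi, hip⟩ := h.not_sub' (show dist w p = 1 from h2) h3
  have := hcon i (h1 hi) hip
  rw [← this]; exact hi

/-- a colour seen on a half branch at `pt z s` is missing on the half branch at `pt z (s + σ)` -/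
theorem rot187 (h : Irr U T) {σ : ℝ} {t : Fin 6} (hσ : σ = 1 ∨ σ = -1) {c₁ c₂ : ℝ}
    (hT : ∀ w ∈ Ioo c₁ c₂, t ∈ T (pt z w)) : ∀ w ∈ Ioo (c₁ + σ) (c₂ + σ), t ∉ T (pt z w) := by
  intro w hw htw
  have hw' : w - σ ∈ Ioo c₁ c₂ := ⟨by linarith [hw.1], by linarith [hw.2]⟩
  have h1 : ∀ᶠ q in 𝓝[sphere z 1] (pt z (w - σ)), t ∈ T q :=
    ev_circle z (p := fun q => t ∈ T q)
      (by filter_upwards [isOpen_Ioo.mem_nhds hw'] with v hv using hT v hv)
  have h2 : dist (pt z (w - σ)) (pt z w) = 1 := by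
    rcases hσ with rfl | rfl
    · have := dist_pt_one z (w - 1)
      rwa [sub_add_cancel] at this
    · have := dist_pt_one z w
      rw [dist_comm, sub_neg_eq_add]; exact this
  have h3 := tri (dist_pt z (w - σ)) (dist_pt z w)
  rcases h.third (dist_pt z (w - σ)) h1 h2 htw with h4 | h4
  · exact h3.1 h4.symm
  · exact h3.2 (by rw [add_comm]; exact h4)

/-- the circle of `z` passes `pt z s` from the colour `g` to the colour `g'` -/
def Flip (T : ℂ → Set (Fin 6)) (z : ℂ) (s : ℝ) (g g' : Fin 6) : Prop :=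
  (∀ᶠ w in 𝓝[<] s, g ∈ T (pt z w)) ∧ ∀ᶠ w in 𝓝[>] s, g' ∈ T (pt z w)

/-- rotation of a flip -/
theorem Flip.rot (h : Irr U T) {s σ : ℝ} {g g' : Fin 6} (hF : Flip T z s g g')
    (hσ : σ = 1 ∨ σ = -1) : (∀ᶠ w in 𝓝[<] (s + σ), g ∉ T (pt z w)) ∧
      ∀ᶠ w in 𝓝[>] (s + σ), g' ∉ T (pt z w) := by
  obtain ⟨h1, h2⟩ := hF
  constructor
  · obtain ⟨c₁, hc₁, hsub⟩ := mem_nhdsLT_iff_exists_Ioo_subset.1 h1
    have hc₁ : c₁ < s := hc₁
    have h3 := rot187 h (z := z) hσ (fun w hw => hsub hw)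
    filter_upwards [Ioo_mem_nhdsLT (show c₁ + σ < s + σ by linarith)] with w hw using h3 w hw
  · obtain ⟨c₁, hc₁, hsub⟩ := mem_nhdsGT_iff_exists_Ioo_subset.1 h2
    have hc₁ : s < c₁ := hc₁
    have h3 := rot187 h (z := z) hσ (fun w hw => hsub hw)
    filter_upwards [Ioo_mem_nhdsGT (show s + σ < c₁ + σ by linarith)] with w hw using h3 w hw

/-- a flip at a two-pair point `y` of the circle of a two-pair point `z` with the common pair -/
theorem exists_flip (h : Irr U T) (hm : Mn338 U T) (hz : DPt T z a b c d) {s : ℝ}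
    (hy : DPt T (pt z s) a b e f) (nd : [a, b, c, d, e, f].Nodup) :
    Flip T z s e f ∨ Flip T z s f e := by
  simp only [List.nodup_cons, List.mem_cons, List.not_mem_nil, or_false, not_or, List.nodup_nil,
    and_true, not_false_eq_true] at nd
  obtain ⟨⟨nab, nac, nad, nae, naf⟩, ⟨nbc, nbd, nbe, nbf⟩, ⟨ncd, nce, ncf⟩, ⟨nde, ndf⟩, nef⟩ := nd
  -- a palette inside `{x, g}`
  have key : ∀ {x g : Fin 6}, (x = a ∨ x = b) → (g = e ∨ g = f) → ∀ w, T (pt z w) ⊆ {x, g} →
      g ∈ T (pt z w) := by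
    intro x g hx hg w hw
    have hga : g ≠ a ∧ g ≠ b ∧ g ≠ c ∧ g ≠ d := by
      rcases hg with rfl | rfl
      · exact ⟨Ne.symm nae, Ne.symm nbe, Ne.symm nce, Ne.symm nde⟩
      · exact ⟨Ne.symm naf, Ne.symm nbf, Ne.symm ncf, Ne.symm ndf⟩
    rcases letters187 h hm hz (dist_pt z w) with ⟨i, hi, hiz⟩ | h1 | h1
    · rcases hw hi with rfl | h2
      · exfalso
        apply hiz
        rw [hz.pal]
        rcases hx with rfl | rfl <;> simp
      · rw [mem_singleton_iff] at h2
        rwa [← h2]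
    · exfalso
      have ha := hw (h1 (show a ∈ ({a, b} : Set (Fin 6)) by simp))
      have hb := hw (h1 (show b ∈ ({a, b} : Set (Fin 6)) by simp))
      simp only [mem_insert_iff, mem_singleton_iff] at ha hb
      rcases ha with ha | ha
      · rcases hb with hb | hb
        · exact nab (ha.trans hb.symm)
        · exact hga.2.1 hb.symm
      · exact hga.1 ha.symm
    · exfalso
      have hc := hw (h1 (show c ∈ ({c, d} : Set (Fin 6)) by simp))
      simp only [mem_insert_iff, mem_singleton_iff] at hc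
      rcases hc with hc | hc
      · rcases hx with rfl | rfl
        · exact nac hc.symm
        · exact nbc hc.symm
      · exact hga.2.2.1 hc.symm
  obtain ⟨X, Y, hXY, h1, h2⟩ := split_ang h hy
  rcases hXY with ⟨rfl, rfl⟩ | ⟨rfl, rfl⟩ | ⟨rfl, rfl⟩ | ⟨rfl, rfl⟩
  · exact Or.inl ⟨h1.mono fun w hw => key (Or.inl rfl) (Or.inl rfl) w hw,
      h2.mono fun w hw => key (Or.inr rfl) (Or.inr rfl) w hw⟩
  · exact Or.inr ⟨h1.mono fun w hw => key (Or.inr rfl) (Or.inr rfl) w hw,
      h2.mono fun w hw => key (Or.inl rfl) (Or.inl rfl) w hw⟩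
  · exact Or.inr ⟨h1.mono fun w hw => key (Or.inl rfl) (Or.inr rfl) w hw,
      h2.mono fun w hw => key (Or.inr rfl) (Or.inl rfl) w hw⟩
  · exact Or.inl ⟨h1.mono fun w hw => key (Or.inr rfl) (Or.inl rfl) w hw,
      h2.mono fun w hw => key (Or.inl rfl) (Or.inr rfl) w hw⟩

/-- a generic letter on a half branch -/
theorem exists_left (h : Irr U T) (z : ℂ) {s : ℝ} {p : ℝ → Prop} (hp : ∀ᶠ w in 𝓝[<] s, p w) :
    ∃ w, p w ∧ w ∈ Lc T z := by
  obtain ⟨c₁, hc₁, hsub⟩ := mem_nhdsLT_iff_exists_Ioo_subset.1 hp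
  have hc₁ : c₁ < s := hc₁
  obtain ⟨w, h1, h2⟩ := (Lc_dense h z).exists_mem_open isOpen_Ioo (nonempty_Ioo.2 hc₁)
  exact ⟨w, hsub h2, h1⟩

theorem exists_right (h : Irr U T) (z : ℂ) {s : ℝ} {p : ℝ → Prop} (hp : ∀ᶠ w in 𝓝[>] s, p w) :
    ∃ w, p w ∧ w ∈ Lc T z := by
  obtain ⟨c₁, hc₁, hsub⟩ := mem_nhdsGT_iff_exists_Ioo_subset.1 hp
  have hc₁ : s < c₁ := hc₁
  obtain ⟨w, h1, h2⟩ := (Lc_dense h z).exists_mem_open isOpen_Ioo (nonempty_Ioo.2 hc₁)
  exact ⟨w, hsub h2, h1⟩

theorem ex_of_Lc {w : ℝ} (hw : w ∈ Lc T z) : pt z w ∈ Ex T z (T (pt z w)) :=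
  ⟨dist_pt z w, ev_circle z (p := fun q => T q = T (pt z w)) hw⟩

/-- **One side of the apex rule**: at a point `p` of `S(z)` at distance one from a flip `g | g'` of
`S(z)`, outside the closure of the `cd`-arcs and without the pair `ab`, both colours `g, g'` are
present. -/
theorem flip_apex (h : Irr U T) (hm : Mn338 U T) (hz : DPt T z a b c d)
    (hcov : ∀ i, i = a ∨ i = b ∨ i = c ∨ i = d ∨ i = e ∨ i = f) {s σ : ℝ} (hσ : σ = 1 ∨ σ = -1)
    (hF : Flip T z s e f ∨ Flip T z s f e) (hab : ¬ {a, b} ⊆ T (pt z (s + σ)))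
    (hcd : pt z (s + σ) ∉ closure (Ex T z {c, d})) : {e, f} ⊆ T (pt z (s + σ)) := by
  have hsub : ∀ᶠ w in 𝓝 (s + σ), T (pt z w) ⊆ T (pt z (s + σ)) := nhd_ang h z (s + σ)
  have hncd : ∀ᶠ w in 𝓝 (s + σ), pt z w ∉ Ex T z {c, d} := by
    have h1 : ∀ᶠ q in 𝓝 (pt z (s + σ)), q ∉ closure (Ex T z {c, d}) :=
      isClosed_closure.isOpen_compl.mem_nhds hcd
    filter_upwards [((continuous_pt z).tendsto (s + σ)).eventually h1] with w hw h2
    exact hw (subset_closure h2)
  -- a generic letter near `p` without the colour `g` has the colour `g'`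
  have key : ∀ g g' : Fin 6, ((g = e ∧ g' = f) ∨ (g = f ∧ g' = e)) → ∀ w,
      T (pt z w) ⊆ T (pt z (s + σ)) → pt z w ∉ Ex T z {c, d} → w ∈ Lc T z →
      g ∉ T (pt z w) → g' ∈ T (pt z (s + σ)) := by
    intro g g' hg w h1 h2 h3 h4
    have hE := ex_of_Lc h3
    rcases letter_four h (DPt.four187 hz) (dist_pt z w) hE.2 with ⟨i, hi, hiz⟩ | ⟨h5, h6⟩
    · have hi' : i = g' := by
        have h7 : i ≠ a ∧ i ≠ b ∧ i ≠ c ∧ i ≠ d := by
          rw [hz.pal] at hiz
          simp only [mem_insert_iff, mem_singleton_iff, not_or] at hiz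
          exact hiz
        have h8 : i ≠ g := fun h9 => h4 (h9 ▸ hi)
        rcases hcov i with h9 | h9 | h9 | h9 | h9 | h9
        · exact absurd h9 h7.1
        · exact absurd h9 h7.2.1
        · exact absurd h9 h7.2.2.1
        · exact absurd h9 h7.2.2.2
        · rcases hg with ⟨rfl, rfl⟩ | ⟨rfl, rfl⟩
          · exact absurd h9 h8
          · exact h9
        · rcases hg with ⟨rfl, rfl⟩ | ⟨rfl, rfl⟩
          · exact h9
          · exact absurd h9 h8
      rw [← hi']; exact h1 hi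
    · exfalso
      rcases letters187 h hm hz (dist_pt z w) with ⟨i, hi, hiz⟩ | h7 | h7
      · exact hiz (h5 hi)
      · exact hab (h7.trans h1)
      · have h8 : ({c, d} : Set (Fin 6)) = T (pt z w) :=
          Set.eq_of_subset_of_ncard_le h7 (by rw [h6, Set.ncard_pair hz.cd]) (Set.toFinite _)
        exact h2 (h8 ▸ hE)
  have main : ∀ g g' : Fin 6, ((g = e ∧ g' = f) ∨ (g = f ∧ g' = e)) → Flip T z s g g' →
      {e, f} ⊆ T (pt z (s + σ)) := by
    intro g g' hg hFl
    obtain ⟨h1, h2⟩ := hFl.rot h hσ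
    obtain ⟨w1, ⟨k1, k2, k3⟩, k4⟩ := exists_left h z
      ((hsub.filter_mono nhdsWithin_le_nhds).and ((hncd.filter_mono nhdsWithin_le_nhds).and h1))
    obtain ⟨w2, ⟨m1, m2, m3⟩, m4⟩ := exists_right h z
      ((hsub.filter_mono nhdsWithin_le_nhds).and ((hncd.filter_mono nhdsWithin_le_nhds).and h2))
    have r1 := key g g' hg w1 k1 k2 k4 k3
    have r2 := key g' g (by tauto) w2 m1 m2 m4 m3
    rcases hg with ⟨rfl, rfl⟩ | ⟨rfl, rfl⟩
    · rintro i (rfl | hi)
      · exact r2
      · rw [mem_singleton_iff] at hi; rw [hi]; exact r1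
    · rintro i (rfl | hi)
      · exact r1
      · rw [mem_singleton_iff] at hi; rw [hi]; exact r2
  rcases hF with hF | hF
  · exact main e f (Or.inl ⟨rfl, rfl⟩) hF
  · exact main f e (Or.inr ⟨rfl, rfl⟩) hF

/-- two two-pair points at distance one with exactly one common pair `ab` -/
structure HH (T : ℂ → Set (Fin 6)) (z y : ℂ) (a b c d e f : Fin 6) : Prop where
  nd : [a, b, c, d, e, f].Nodup
  hz : DPt T z a b c d
  hy : DPt T y a b e f
  hyz : dist y z = 1

theorem cov_of_nodup (a b c d e f : Fin 6) (nd : [a, b, c, d, e, f].Nodup) :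
    ∀ i, i = a ∨ i = b ∨ i = c ∨ i = d ∨ i = e ∨ i = f := by
  have hu : [a, b, c, d, e, f].toFinset = Finset.univ :=
    Finset.eq_univ_of_card _ (by rw [List.toFinset_card_of_nodup nd]; rfl)
  intro i
  have h2 : i ∈ [a, b, c, d, e, f].toFinset := by rw [hu]; exact Finset.mem_univ i
  simpa using h2

theorem HH.symm (H : HH T z y a b c d e f) : HH T y z a b e f c d where
  nd := by
    have := H.nd
    simp only [List.nodup_cons, List.mem_cons, List.not_mem_nil, or_false, not_or, List.nodup_nil,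
      and_true, not_false_eq_true] at this ⊢
    tauto
  hz := H.hy
  hy := H.hz
  hyz := by rw [dist_comm]; exact H.hyz

/-- the angle of a point of the circle -/
theorem exists_pt {q z : ℂ} (hq : dist q z = 1) : ∃ s : ℝ, q = pt z s := by
  obtain ⟨θ, hθ⟩ := exists_cis (u := q - z) (by rw [← dist_eq_norm]; exact hq)
  refine ⟨θ / (Real.pi / 3), ?_⟩
  unfold pt
  rw [div_mul_cancel₀ _ (by positivity), ← hθ]; ring

/-- two points of the circle at distance one -/
theorem exists_sign {z : ℂ} {s : ℝ} {p : ℂ} (hp : dist p z = 1) (hs : dist p (pt z s) = 1) :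
    ∃ σ : ℝ, (σ = 1 ∨ σ = -1) ∧ p = pt z (s + σ) := by
  obtain ⟨w, hw⟩ : ∃ w, w = (p - z) * cis (-(s * (Real.pi / 3))) := ⟨_, rfl⟩
  have hc : cis (-(s * (Real.pi / 3))) * cis (s * (Real.pi / 3)) = 1 := by
    rw [← Vale.Agent.P032.S5.H767.cis_add, neg_add_cancel]
    exact cis_zero
  have hpw : p = z + cis (s * (Real.pi / 3)) * w := by
    rw [hw]; linear_combination (p - z) * (-hc)
  have h1 : ‖w‖ = 1 := by
    rw [hw, norm_mul, norm_cis, mul_one, ← dist_eq_norm]; exact hp
  have h2 : ‖w - 1‖ = 1 := by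
    rw [dist_eq_norm, hpw] at hs
    have e1 : z + cis (s * (Real.pi / 3)) * w - pt z s = cis (s * (Real.pi / 3)) * (w - 1) := by
      unfold pt; ring
    rw [e1, norm_mul, norm_cis, one_mul] at hs
    exact hs
  have h3 : w.re * w.re + w.im * w.im = 1 := by
    have := Complex.normSq_eq_norm_sq w
    rw [h1, Complex.normSq_apply] at this
    linarith
  have h4 : (w.re - 1) * (w.re - 1) + w.im * w.im = 1 := by
    have := Complex.normSq_eq_norm_sq (w - 1)
    rw [h2, Complex.normSq_apply] at this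
    simp only [Complex.sub_re, Complex.one_re, Complex.sub_im, Complex.one_im, sub_zero] at this
    linarith
  have h5 : w.re = 1 / 2 := by linarith
  have h6 : √3 * √3 = 3 := Real.mul_self_sqrt (by norm_num)
  have h7 : (w.im - √3 / 2) * (w.im + √3 / 2) = 0 := by
    rw [h5] at h3; nlinarith
  rcases mul_eq_zero.1 h7 with h8 | h8
  · refine ⟨1, Or.inl rfl, ?_⟩
    rw [pt_one, hpw]
    have e2 : w = (⟨1 / 2, √3 / 2⟩ : ℂ) := Complex.ext h5 (by simp; linarith)
    rw [e2]
  · refine ⟨-1, Or.inr rfl, ?_⟩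
    have e2 : w = (⟨1 / 2, -(√3 / 2)⟩ : ℂ) := Complex.ext h5 (by simp; linarith)
    unfold pt
    rw [show (s + -1) * (Real.pi / 3) = s * (Real.pi / 3) + -(Real.pi / 3) by ring,
      Vale.Agent.P032.S5.H767.cis_add, cis_neg_third, hpw, e2]

/-- no apex with at most three colours contains the common pair -/
theorem HH.no_ab (h : Irr U T) (hm : Mn338 U T) (H : HH T z y a b c d e f) (hpz : dist p z = 1)
    (hpy : dist p y = 1) (h3 : (T p).ncard ≤ 3) : ¬ {a, b} ⊆ T p := by
  intro hab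
  have hnd := H.nd
  simp only [List.nodup_cons, List.mem_cons, List.not_mem_nil, or_false, not_or, List.nodup_nil,
    and_true, not_false_eq_true] at hnd
  obtain ⟨⟨nab, nac, nad, nae, naf⟩, ⟨nbc, nbd, nbe, nbf⟩, ⟨ncd, nce, ncf⟩, ⟨nde, ndf⟩, nef⟩ := hnd
  have haT : a ∈ T p := hab (by simp)
  have hbT : b ∈ T p := hab (by simp)
  -- no colour of the private pairs
  have key : ∀ {x x' : Fin 6} {w : ℂ}, DPt T w a b x x' → dist w p = 1 → x ∉ T p := by
    intro x x' w hw hwp hx
    obtain ⟨i, hi, hip, hix⟩ := three_sub187 h hw hwp h3 x'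
    rw [hw.pal] at hi
    rcases hi with rfl | rfl | rfl | hi
    · exact hip haT
    · exact hip hbT
    · exact hip hx
    · exact hix hi
  have hzp : dist z p = 1 := by rw [dist_comm]; exact hpz
  have hyp : dist y p = 1 := by rw [dist_comm]; exact hpy
  have k1 := key H.hz hzp
  have k2 := key H.hz.swap34 hzp
  have hev : ∀ᶠ q in 𝓝[sphere z 1] p, a ∈ T q := by
    filter_upwards [(h.nhd p).filter_mono nhdsWithin_le_nhds, self_mem_nhdsWithin] with q h1 h2
    rcases letters187 h hm H.hz (show dist q z = 1 from h2) with ⟨i, hi, hiz⟩ | h4 | h4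
    · exfalso
      have h5 := h1 hi
      have k3 := key H.hy hyp
      have k4 := key H.hy.swap34 hyp
      rw [H.hz.pal] at hiz
      simp only [mem_insert_iff, mem_singleton_iff, not_or] at hiz
      rcases cov_of_nodup a b c d e f H.nd i with h6 | h6 | h6 | h6 | h6 | h6
      · exact hiz.1 h6
      · exact hiz.2.1 h6
      · exact hiz.2.2.1 h6
      · exact hiz.2.2.2 h6
      · exact k3 (h6 ▸ h5)
      · exact k4 (h6 ▸ h5)
    · exact h4 (by simp)
    · exact absurd (h1 (h4 (by simp))) k1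
  have hay : a ∈ T y := by rw [H.hy.pal]; simp
  have h7 := tri hpz H.hyz
  rcases h.third hpz hev hpy hay with h8 | h8
  · exact h7.1 h8.symm
  · exact h7.2 (by rw [add_comm]; exact h8)

/-- **Apex rule.** A common point of the two circles with at most three colours is in the closure
of the `cd`-arcs of `z` or in the closure of the `ef`-arcs of `y`. -/
theorem HH.apex (h : Irr U T) (hm : Mn338 U T) (H : HH T z y a b c d e f) (hpz : dist p z = 1)
    (hpy : dist p y = 1) (h3 : (T p).ncard ≤ 3) :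
    p ∈ closure (Ex T z {c, d}) ∨ p ∈ closure (Ex T y {e, f}) := by
  by_contra hcon
  rw [not_or] at hcon
  obtain ⟨hc1, hc2⟩ := hcon
  have hab := H.no_ab h hm hpz hpy h3
  have hef : {e, f} ⊆ T p := by
    obtain ⟨s, hs⟩ := exists_pt H.hyz
    obtain ⟨σ, hσ, hpσ⟩ := exists_sign hpz (by rw [← hs]; exact hpy)
    rw [hpσ] at hab hc1 ⊢
    exact flip_apex h hm H.hz (cov_of_nodup _ _ _ _ _ _ H.nd) hσ
      (exists_flip h hm H.hz (by rw [← hs]; exact H.hy) H.nd) hab hc1
  have hcd : {c, d} ⊆ T p := by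
    obtain ⟨s, hs⟩ := exists_pt H.symm.hyz
    obtain ⟨σ, hσ, hpσ⟩ := exists_sign hpy (by rw [← hs]; exact hpz)
    rw [hpσ] at hab hc2 ⊢
    exact flip_apex h hm H.hy (cov_of_nodup _ _ _ _ _ _ H.symm.nd) hσ
      (exists_flip h hm H.hy (by rw [← hs]; exact H.hz) H.symm.nd) hab hc2
  have hnd := H.nd
  simp only [List.nodup_cons, List.mem_cons, List.not_mem_nil, or_false, not_or, List.nodup_nil,
    and_true, not_false_eq_true] at hnd
  obtain ⟨-, -, ⟨ncd, nce, ncf⟩, ⟨nde, ndf⟩, nef⟩ := hnd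
  have h4 : ({c, d, e, f} : Set (Fin 6)) ⊆ T p := by
    rintro i (rfl | rfl | rfl | hi)
    · exact hcd (by simp)
    · exact hcd (by simp)
    · exact hef (by simp)
    · rw [mem_singleton_iff] at hi; rw [hi]; exact hef (by simp)
  have h5 := Set.ncard_le_ncard h4 (Set.toFinite _)
  rw [Set.ncard_insert_of_notMem (by simp [ncd, nce, ncf]),
    Set.ncard_insert_of_notMem (by simp [nde, ndf]), Set.ncard_pair nef] at h5
  omega

end Vale.Agent.P032.H187
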