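import Vale.Agent.P032.H187.Owner
import Vale.Agent.P032.H169.Full

/-!
# P032: two two-pair points at distance one with a common pair, parallel arcs and J-points

`z` has the pairs `ab`, `cd`, `y` has the pairs `ab`, `ef`, `|y - z| = 1`; there is a Z-apex `u`, a
point of both circles in the closure of the `cd`-arcs of `S(z)`.
`HH.par` : the closed `ef`-arcs of `y` are parallel to closed `cd`-arcs of `z`.
`HH.end_four` : an end of an `ef`-arc of `y` with at most three colours is parallel to a point of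
`S(z)` with four colours.
`HH.j_dir` : a point of `S(z)` with the palette of `z` is parallel to a point of the closure of the
`ef`-arcs of `S(y)`, or of a four coloured end of an `ab`-arc.
-/

open Set Filter Topology Metric

noncomputable section

namespace Vale.Agent.P032.H187

open Vale.Agent.P032.Six Vale.Agent.P032.S5.H767 Vale.Agent.P032.H338 Vale.Agent.P032.H780
  Vale.Agent.P032.S5.H122 Vale.Agent.P032.Sweep Vale.Agent.P032.H989

variable {U : Fin 6 → Set ℂ} {T : ℂ → Set (Fin 6)} {z y u : ℂ} {a b c d e f : Fin 6}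

theorem pt_sub (z y : ℂ) (s : ℝ) : pt y s - y = pt z s - z := by unfold pt; ring

/-- **Parallel arcs, closed exact form.** -/
theorem HH.par (h : Irr U T) (hm : Mn338 U T) (H : HH T z y a b c d e f) (huy : dist u y = 1)
    (hu : u ∈ closure (Ex T z {c, d})) {s : ℝ} (hs : pt y s ∈ closure (Ex T y {e, f})) :
    pt z s ∈ closure (Ex T z {c, d}) := by
  have hcov := cov_of_nodup _ _ _ _ _ _ H.nd
  have hu' : u ∈ closure (Cr U z {c, d}) := closure_mono (Ex_Cr h) hu
  -- exact points
  have key : ∀ ε : ℂ, y + ε ∈ Ex T y {e, f} → z + ε ∈ closure (Ex T z {c, d}) := by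
    intro ε hε
    have hn : ‖ε‖ = 1 := by
      have := hε.1
      rwa [dist_eq_norm, add_sub_cancel_left] at this
    have hεC : y + ε ∈ Cr U y {e, f} := Ex_Cr h hε
    have hpar := parallel h hm H.hz hcov H.hyz huy hu' hεC
    rw [mem_closure_iff_nhds]
    intro V hV
    -- generic directions
    have ht : Tendsto (fun x : ℂ => z + x) (𝓝 ε) (𝓝 (z + ε)) := by
      have h1 : Continuous fun x : ℂ => z + x := by fun_prop
      exact h1.tendsto ε
    have h2 : ∀ᶠ ε' in 𝓝 ε, ‖ε'‖ = 1 → {c, d} ⊆ T (z + ε') := by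
      have h3 := eventually_nhdsWithin_iff.1 hpar
      filter_upwards [ht.eventually h3] with ε' h4 h5
      exact h4 (by rw [mem_sphere, dist_eq_norm, add_sub_cancel_left, h5])
    obtain ⟨ε', ⟨k1, k2, k3⟩, k4, k5, k6, k7⟩ := exists_generic h z hn
      ((ht.eventually hV).and (h2.and (Cr_dir hεC))) (z - y) (y - z)
    refine ⟨z + ε', k1, ?_⟩
    have hcd := k2 k4
    have h8 := k3 k4
    have hpr : ∀ t ∈ ({e, f} : Set (Fin 6)), t ∉ T (z + ε') := by
      intro t ht htT
      have h9 := product h.mx (z := y) (y := z) (by rw [dist_comm]; exact H.hyz) h8 ht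
        (fun h9 => k5 (by linear_combination h9)) (fun h9 => k6 (by linear_combination h9))
      rw [add_sub_cancel_left] at h9
      exact h9 (h.sub _ htT)
    rcases letter_four h (DPt.four187 H.hz) k7.1 k7.2 with ⟨i, hi, hiz⟩ | ⟨h5, h6⟩
    · exfalso
      rw [H.hz.pal] at hiz
      simp only [mem_insert_iff, mem_singleton_iff, not_or] at hiz
      rcases hcov i with h9 | h9 | h9 | h9 | h9 | h9
      · exact hiz.1 h9
      · exact hiz.2.1 h9
      · exact hiz.2.2.1 h9
      · exact hiz.2.2.2 h9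
      · exact hpr e (by simp) (h9 ▸ hi)
      · exact hpr f (by simp) (h9 ▸ hi)
    · have h9 : ({c, d} : Set (Fin 6)) = T (z + ε') :=
        Set.eq_of_subset_of_ncard_le hcd (by rw [h6, Set.ncard_pair H.hz.cd]) (Set.toFinite _)
      rw [h9]
      exact k7
  have h1 : closure (Ex T y {e, f}) ⊆ {q | z + (q - y) ∈ closure (Ex T z {c, d})} := by
    refine closure_minimal (fun q hq => ?_)
      (isClosed_closure.preimage (f := fun q : ℂ => z + (q - y)) (by fun_prop))
    exact key (q - y) (by rw [add_sub_cancel]; exact hq)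
  have h2 := h1 hs
  have h3 : z + (pt y s - y) = pt z s := by rw [pt_sub z y]; ring
  simp only [mem_ofPred_eq] at h2
  rw [h3] at h2
  exact h2

/-- **Ends of the ef-arcs of `y`.** -/
theorem HH.end_four (h : Irr U T) (hm : Mn338 U T) (H : HH T z y a b c d e f) (huy : dist u y = 1)
    (hu : u ∈ closure (Ex T z {c, d})) {s : ℝ} (hs : pt y s ∈ closure (Ex T y {e, f}))
    (hend : ¬ ∀ᶠ w in 𝓝 s, {e, f} ⊆ T (pt y w)) (h3 : (T (pt y s)).ncard ≤ 3) :
    pt z s ∈ closure (Ex T z {c, d}) ∧ 4 ≤ (T (pt z s)).ncard := by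
  have hnd := H.nd
  simp only [List.nodup_cons, List.mem_cons, List.not_mem_nil, or_false, not_or, List.nodup_nil,
    and_true, not_false_eq_true] at hnd
  obtain ⟨⟨nab, nac, nad, nae, naf⟩, ⟨nbc, nbd, nbe, nbf⟩, ⟨ncd, nce, ncf⟩, ⟨nde, ndf⟩, nef⟩ := hnd
  have hcov := cov_of_nodup _ _ _ _ _ _ H.nd
  have hp := H.par h hm huy hu hs
  refine ⟨hp, ?_⟩
  have hcd := sub_of_closure h hp
  have hef := sub_of_closure h hs
  have e1 : y + (pt z s - z) = pt y s := by rw [← pt_sub z y]; ring
  have e2 : z + (pt z s - z) = pt z s := by ring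
  have k := end_order h hm H.hz H.hy hcov (ε := pt z s - z) (by
    rw [Set.disjoint_left]
    rintro i (rfl | hi) h5
    · rcases h5 with h5 | h5
      · exact nce h5
      · exact ncf h5
    · rw [mem_singleton_iff] at hi; subst hi
      rcases h5 with h5 | h5
      · exact nde h5
      · exact ndf h5) H.hyz huy (closure_mono (Ex_Cr h) hu)
    (by rw [← dist_eq_norm]; exact dist_pt z s) (by rw [e1]; exact hs) (fun hev => hend ?_)
    (fun h5 => ?_) (fun h5 => ?_) (by rw [e1]; exact h3)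
  · rwa [e2] at k
  · rw [e1] at hev
    have h6 := eventually_nhdsWithin_iff.1 hev
    filter_upwards [((continuous_pt y).tendsto s).eventually h6] with w hw
    exact hw (dist_pt y w)
  · rw [e1] at h5
    have h6 : e ∈ T z := h5 ▸ hef (by simp)
    rw [H.hz.pal] at h6
    rcases h6 with h6 | h6 | h6 | h6
    · exact nae h6.symm
    · exact nbe h6.symm
    · exact nce h6.symm
    · exact nde h6.symm
  · rw [e2] at h5
    have h6 : c ∈ T y := h5 ▸ hcd (by simp)
    rw [H.hy.pal] at h6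
    rcases h6 with h6 | h6 | h6 | h6
    · exact nac h6.symm
    · exact nbc h6.symm
    · exact nce h6
    · exact ncf h6

/-- the two sides of a point of `S(z)` with the palette of `z` -/
theorem j_sides (h : Irr U T) (hm : Mn338 U T) (hz : DPt T z a b c d) {s : ℝ}
    (hs : T (pt z s) = T z) :
    ((∀ᶠ w in 𝓝[<] s, T (pt z w) = {a, b}) ∧ ∀ᶠ w in 𝓝[>] s, T (pt z w) = {c, d}) ∨
      ((∀ᶠ w in 𝓝[<] s, T (pt z w) = {c, d}) ∧ ∀ᶠ w in 𝓝[>] s, T (pt z w) = {a, b}) := by
  obtain ⟨a', b', c', d', hD⟩ := h.dpt_of_eq169 ⟨a, b, c, d, hz⟩ (dist_pt z s) hs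
  obtain ⟨X, Y, hXY, h1, h2⟩ := split_ang h hD
  have hsub : X ⊆ T z ∧ Y ⊆ T z ∧ X.ncard = 2 ∧ Y.ncard = 2 ∧ Disjoint X Y := by
    rw [← hs, hD.pal]
    have n1 := hD.ac
    have n2 := hD.ad
    have n3 := hD.bc
    have n4 := hD.bd
    have n5 := hD.ab
    have n6 := hD.cd
    rcases hXY with ⟨rfl, rfl⟩ | ⟨rfl, rfl⟩ | ⟨rfl, rfl⟩ | ⟨rfl, rfl⟩
    · refine ⟨?_, ?_, Set.ncard_pair n1, Set.ncard_pair n4, ?_⟩
      · rintro i (rfl | hi)
        · simp
        · rw [mem_singleton_iff] at hi; subst hi; simp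
      · rintro i (rfl | hi)
        · simp
        · rw [mem_singleton_iff] at hi; subst hi; simp
      · rw [Set.disjoint_left]
        rintro i (rfl | hi) (h5 | h5)
        · exact n5 h5
        · exact n2 h5
        · rw [mem_singleton_iff] at hi; exact n3 (h5.symm.trans hi)
        · rw [mem_singleton_iff] at hi h5; exact n6 (hi.symm.trans h5)
    · refine ⟨?_, ?_, Set.ncard_pair n4, Set.ncard_pair n1, ?_⟩
      · rintro i (rfl | hi)
        · simp
        · rw [mem_singleton_iff] at hi; subst hi; simp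
      · rintro i (rfl | hi)
        · simp
        · rw [mem_singleton_iff] at hi; subst hi; simp
      · rw [Set.disjoint_left]
        rintro i (rfl | hi) (h5 | h5)
        · exact n5 h5.symm
        · exact n3 h5
        · rw [mem_singleton_iff] at hi; exact n2 (h5.symm.trans hi)
        · rw [mem_singleton_iff] at hi h5; exact n6 (h5.symm.trans hi)
    · refine ⟨?_, ?_, Set.ncard_pair n2, Set.ncard_pair n3, ?_⟩
      · rintro i (rfl | hi)
        · simp
        · rw [mem_singleton_iff] at hi; subst hi; simp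
      · rintro i (rfl | hi)
        · simp
        · rw [mem_singleton_iff] at hi; subst hi; simp
      · rw [Set.disjoint_left]
        rintro i (rfl | hi) (h5 | h5)
        · exact n5 h5
        · exact n1 h5
        · rw [mem_singleton_iff] at hi; exact n4 (h5.symm.trans hi)
        · rw [mem_singleton_iff] at hi h5; exact n6 (h5.symm.trans hi)
    · refine ⟨?_, ?_, Set.ncard_pair n3, Set.ncard_pair n2, ?_⟩
      · rintro i (rfl | hi)
        · simp
        · rw [mem_singleton_iff] at hi; subst hi; simp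
      · rintro i (rfl | hi)
        · simp
        · rw [mem_singleton_iff] at hi; subst hi; simp
      · rw [Set.disjoint_left]
        rintro i (rfl | hi) (h5 | h5)
        · exact n5 h5.symm
        · exact n4 h5
        · rw [mem_singleton_iff] at hi; exact n1 (h5.symm.trans hi)
        · rw [mem_singleton_iff] at hi h5; exact n6 (hi.symm.trans h5)
  obtain ⟨hXz, hYz, hX2, hY2, hdis⟩ := hsub
  -- a palette inside `X`
  have key : ∀ {X : Set (Fin 6)}, X ⊆ T z → X.ncard = 2 → ∀ w, T (pt z w) ⊆ X →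
      (T (pt z w) = {a, b} ∧ X = {a, b}) ∨ (T (pt z w) = {c, d} ∧ X = {c, d}) := by
    intro X hXz hX2 w hw
    rcases letters187 h hm hz (dist_pt z w) with ⟨i, hi, hiz⟩ | h5 | h5
    · exact absurd (hXz (hw hi)) hiz
    · left
      have e1 : ({a, b} : Set (Fin 6)) = X :=
        Set.eq_of_subset_of_ncard_le (h5.trans hw) (by rw [hX2, Set.ncard_pair hz.ab])
          (Set.toFinite _)
      refine ⟨?_, e1.symm⟩
      exact Set.Subset.antisymm (by rw [e1]; exact hw) h5
    · right
      have e1 : ({c, d} : Set (Fin 6)) = X :=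
        Set.eq_of_subset_of_ncard_le (h5.trans hw) (by rw [hX2, Set.ncard_pair hz.cd])
          (Set.toFinite _)
      refine ⟨?_, e1.symm⟩
      exact Set.Subset.antisymm (by rw [e1]; exact hw) h5
  obtain ⟨w1, hw1⟩ := h1.exists
  obtain ⟨w2, hw2⟩ := h2.exists
  have hne : X ≠ Y := by
    intro hh
    rw [hh, disjoint_self] at hdis
    rw [show Y = ∅ from hdis, Set.ncard_empty] at hY2
    omega
  rcases key hXz hX2 w1 hw1 with ⟨-, hX⟩ | ⟨-, hX⟩
  · rcases key hYz hY2 w2 hw2 with ⟨-, hY⟩ | ⟨-, hY⟩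
    · exact absurd (hX.trans hY.symm) hne
    · left
      refine ⟨h1.mono fun w hw => ?_, h2.mono fun w hw => ?_⟩
      · rcases key hXz hX2 w hw with h6 | h6
        · exact h6.1
        · exfalso
          have : a ∈ ({c, d} : Set (Fin 6)) := by rw [← h6.2, hX]; simp
          rcases this with h7 | h7
          · exact hz.ac h7
          · exact hz.ad h7
      · rcases key hYz hY2 w hw with h6 | h6
        · exfalso
          have : a ∈ ({c, d} : Set (Fin 6)) := by rw [← hY, h6.2]; simp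
          rcases this with h7 | h7
          · exact hz.ac h7
          · exact hz.ad h7
        · exact h6.1
  · rcases key hYz hY2 w2 hw2 with ⟨-, hY⟩ | ⟨-, hY⟩
    · right
      refine ⟨h1.mono fun w hw => ?_, h2.mono fun w hw => ?_⟩
      · rcases key hXz hX2 w hw with h6 | h6
        · exfalso
          have : a ∈ ({c, d} : Set (Fin 6)) := by rw [← hX, h6.2]; simp
          rcases this with h7 | h7
          · exact hz.ac h7
          · exact hz.ad h7
        · exact h6.1
      · rcases key hYz hY2 w hw with h6 | h6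
        · exact h6.1
        · exfalso
          have : a ∈ ({c, d} : Set (Fin 6)) := by rw [← h6.2, hY]; simp
          rcases this with h7 | h7
          · exact hz.ac h7
          · exact hz.ad h7
    · exact absurd (hX.trans hY.symm) hne

/-- a colour of an exact arc of `z` is absent in the parallel arc of `y` -/
theorem prod187 (h : Irr U T) (hyz : dist y z = 1) {s : ℝ} {P : Set (Fin 6)} {t : Fin 6}
    (ht : t ∈ P) (hty : T y ≠ P) {F : Filter ℝ} (hF : F ≤ 𝓝[≠] s) {O : Set ℝ} (hO : IsOpen O)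
    (hOF : O ∈ F) (hP : ∀ w ∈ O, T (pt z w) = P) : ∀ᶠ w in F, t ∉ T (pt y w) := by
  have hne : ∀ᶠ w in 𝓝[≠] s, pt y w ≠ z := by
    by_cases hs : pt y s = z
    · rw [eventually_nhdsWithin_iff]
      filter_upwards [Ioo_mem_nhds (show s - 1 < s by linarith) (show s < s + 1 by linarith)]
        with w hw hws h1
      obtain ⟨n, hn⟩ := pt_eq_iff (h1.trans hs.symm)
      have h3 : (n : ℝ) = 0 := by
        have h4 : (n : ℝ) < 1 := by linarith [hw.2]
        have h5 : (-1 : ℝ) < n := by linarith [hw.1]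
        have h6 : n < 1 := by exact_mod_cast h4
        have h7 : -1 < n := by exact_mod_cast h5
        have h8 : n = 0 := by omega
        rw [h8]; simp
      exact hws (by rw [mem_singleton_iff]; linarith)
    · exact (((continuous_pt y).tendsto s).eventually (isOpen_ne.mem_nhds hs)).filter_mono
        nhdsWithin_le_nhds
  filter_upwards [hne.filter_mono hF, hOF] with w h1 h2 h3
  have h4 : ∀ᶠ q in 𝓝[sphere z 1] (pt z w), t ∈ T q :=
    ev_circle z (p := fun q => t ∈ T q)
      (by filter_upwards [hO.mem_nhds h2] with v hv; rw [hP v hv]; exact ht)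
  have h5 : dist (pt z w) (pt y w) = 1 := by
    have : dist (pt z w) (pt y w) = dist z y := by
      rw [dist_eq_norm, dist_eq_norm]; congr 1; unfold pt; ring
    rw [this, dist_comm]; exact hyz
  rcases h.third (dist_pt z w) h4 h5 h3 with h6 | h6
  · exact h1 h6
  · have h7 : pt z w = y := by
      have h8 := pt_sub z y w
      linear_combination h8 - h6
    exact hty (by rw [← h7]; exact hP w h2)

theorem HH.ne_pair (H : HH T z y a b c d e f) {i j : Fin 6} : T y ≠ {i, j} := by
  intro hh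
  have h1 := DPt.four187 H.hy
  rw [hh] at h1
  have h2 := Set.ncard_le_ncard (show ({i, j} : Set (Fin 6)) ⊆ insert i {j} from subset_rfl)
  have h3 := Set.ncard_insert_le i ({j} : Set (Fin 6))
  rw [Set.ncard_singleton] at h3
  omega

/-- **J-points of `z`, one orientation.** -/
theorem HH.j_aux (h : Irr U T) (hm : Mn338 U T) (H : HH T z y a b c d e f) {s : ℝ}
    (hJ : T (pt z s) = T z) {F G : Filter ℝ} [F.NeBot] [G.NeBot] (hF : F ≤ 𝓝[≠] s)
    (hG : G ≤ 𝓝[≠] s) (hFg : ∀ p : ℝ → Prop, (∀ᶠ w in F, p w) → ∃ w, p w ∧ w ∈ Lc T y)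
    (hGg : ∀ p : ℝ → Prop, (∀ᶠ w in G, p w) → ∃ w, p w ∧ w ∈ Lc T y)
    {O O' : Set ℝ} (hO : IsOpen O) (hO' : IsOpen O') (hOF : O ∈ F) (hOG : O' ∈ G)
    (h1 : ∀ w ∈ O, T (pt z w) = {a, b}) (h2 : ∀ w ∈ O', T (pt z w) = {c, d})
    (hcl : pt y s ∉ closure (Ex T y {e, f})) :
    pt y s ∈ closure (Ex T y {a, b}) ∧ 4 ≤ (T (pt y s)).ncard ∧
      ∃ x, (x = c ∨ x = d) ∧ x ∈ T (pt y s) := by
  have hcov := cov_of_nodup _ _ _ _ _ _ H.nd
  have hF1 : F ≤ 𝓝 s := hF.trans nhdsWithin_le_nhds
  have hG1 : G ≤ 𝓝 s := hG.trans nhdsWithin_le_nhds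
  have hsub := nhd_ang h y s
  have hnef : ∀ᶠ w in 𝓝 s, pt y w ∉ Ex T y {e, f} := by
    have h3 : ∀ᶠ q in 𝓝 (pt y s), q ∉ closure (Ex T y {e, f}) :=
      isClosed_closure.isOpen_compl.mem_nhds hcl
    filter_upwards [((continuous_pt y).tendsto s).eventually h3] with w hw h4
    exact hw (subset_closure h4)
  have a1 := prod187 h H.hyz (t := a) (by simp) H.ne_pair hF hO hOF h1
  have b1 := prod187 h H.hyz (t := b) (by simp) H.ne_pair hF hO hOF h1
  have c1 := prod187 h H.hyz (t := c) (by simp) H.ne_pair hG hO' hOG h2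
  have d1 := prod187 h H.hyz (t := d) (by simp) H.ne_pair hG hO' hOG h2
  -- the `cd`-side: `ab`-arcs of `y`
  have hG2 : ∀ w, pt y w ∉ Ex T y {e, f} → c ∉ T (pt y w) → d ∉ T (pt y w) → w ∈ Lc T y →
      T (pt y w) = {a, b} := by
    intro w k1 k2 k3 k4
    have hE := ex_of_Lc k4
    rcases letter_four h (DPt.four187 H.hy) (dist_pt y w) hE.2 with ⟨i, hi, hiz⟩ | ⟨h5, h6⟩
    · exfalso
      rw [H.hy.pal] at hiz
      simp only [mem_insert_iff, mem_singleton_iff, not_or] at hiz
      rcases hcov i with h9 | h9 | h9 | h9 | h9 | h9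
      · exact hiz.1 h9
      · exact hiz.2.1 h9
      · exact k2 (h9 ▸ hi)
      · exact k3 (h9 ▸ hi)
      · exact hiz.2.2.1 h9
      · exact hiz.2.2.2 h9
    · rcases letters187 h hm H.hy (dist_pt y w) with ⟨i, hi, hiz⟩ | h7 | h7
      · exact absurd (h5 hi) hiz
      · exact (Set.eq_of_subset_of_ncard_le h7 (by rw [h6, Set.ncard_pair H.hy.ab])
          (Set.toFinite _)).symm
      · exfalso
        have h8 : ({e, f} : Set (Fin 6)) = T (pt y w) :=
          Set.eq_of_subset_of_ncard_le h7 (by rw [h6, Set.ncard_pair H.hy.cd]) (Set.toFinite _)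
        exact k1 (h8 ▸ hE)
  have hab : pt y s ∈ closure (Ex T y {a, b}) := by
    rw [mem_closure_iff_nhds]
    intro V hV
    have h3 : ∀ᶠ w in 𝓝 s, pt y w ∈ V := ((continuous_pt y).tendsto s).eventually hV
    obtain ⟨w, ⟨k0, k1, k2, k3⟩, k4⟩ := hGg _ ((h3.filter_mono hG1).and
      ((hnef.filter_mono hG1).and (c1.and d1)))
    have h4 := hG2 w k1 k2 k3 k4
    have hE := ex_of_Lc k4
    rw [h4] at hE
    exact ⟨_, k0, hE⟩
  have habT := sub_of_closure h hab
  -- the `ab`-side: a colour `c` or `d`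
  obtain ⟨x, hx, hxT⟩ : ∃ x, (x = c ∨ x = d) ∧ x ∈ T (pt y s) := by
    obtain ⟨w, ⟨k0, k1, k2, k3⟩, k4⟩ := hFg _ ((hsub.filter_mono hF1).and
      ((hnef.filter_mono hF1).and (a1.and b1)))
    have hE := ex_of_Lc k4
    rcases letter_four h (DPt.four187 H.hy) (dist_pt y w) hE.2 with ⟨i, hi, hiz⟩ | ⟨h5, h6⟩
    · rw [H.hy.pal] at hiz
      simp only [mem_insert_iff, mem_singleton_iff, not_or] at hiz
      rcases hcov i with h9 | h9 | h9 | h9 | h9 | h9
      · exact absurd h9 hiz.1
      · exact absurd h9 hiz.2.1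
      · exact ⟨i, Or.inl h9, k0 hi⟩
      · exact ⟨i, Or.inr h9, k0 hi⟩
      · exact absurd h9 hiz.2.2.1
      · exact absurd h9 hiz.2.2.2
    · exfalso
      rcases letters187 h hm H.hy (dist_pt y w) with ⟨i, hi, hiz⟩ | h7 | h7
      · exact hiz (h5 hi)
      · exact k2 (h7 (by simp))
      · have h8 : ({e, f} : Set (Fin 6)) = T (pt y w) :=
          Set.eq_of_subset_of_ncard_le h7 (by rw [h6, Set.ncard_pair H.hy.cd]) (Set.toFinite _)
        exact k1 (h8 ▸ hE)
  refine ⟨hab, ?_, x, hx, hxT⟩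
  by_contra hlt
  have h3 : (T (pt y s)).ncard ≤ 3 := by omega
  obtain ⟨a', b', c', d', hD⟩ := h.dpt_of_eq169 ⟨a, b, c, d, H.hz⟩ (dist_pt z s) hJ
  have hd1 : dist (pt z s) (pt y s) = 1 := by
    have : dist (pt z s) (pt y s) = dist z y := by
      rw [dist_eq_norm, dist_eq_norm]; congr 1; unfold pt; ring
    rw [this, dist_comm]; exact H.hyz
  obtain ⟨x', hx'⟩ : ∃ x', ∀ i, i = c ∨ i = d → i = x ∨ i = x' := by
    rcases hx with rfl | rfl
    · exact ⟨d, fun i hi => hi⟩
    · exact ⟨c, fun i hi => hi.symm⟩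
  obtain ⟨i, hi, hip, hix⟩ := three_sub187 h hD hd1 h3 x'
  rw [hJ, H.hz.pal] at hi
  simp only [mem_insert_iff, mem_singleton_iff] at hi
  rcases hi with h5 | h5 | h5
  · exact hip (h5 ▸ habT (by simp))
  · exact hip (h5 ▸ habT (by simp))
  · rcases hx' i h5 with h6 | h6
    · exact hip (h6 ▸ hxT)
    · exact hix h6

/-- **J-points of `z`.** Parallel to a point `T (pt z s) = T z` the circle of `y` carries a point of
the closed `ef`-arcs, or a four coloured end of an `ab`-arc with a colour `c` or `d`. -/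
theorem HH.j_dir (h : Irr U T) (hm : Mn338 U T) (H : HH T z y a b c d e f) {s : ℝ}
    (hJ : T (pt z s) = T z) : pt y s ∈ closure (Ex T y {e, f}) ∨
      (pt y s ∈ closure (Ex T y {a, b}) ∧ 4 ≤ (T (pt y s)).ncard ∧
        ∃ x, (x = c ∨ x = d) ∧ x ∈ T (pt y s)) := by
  by_cases hcl : pt y s ∈ closure (Ex T y {e, f})
  · exact Or.inl hcl
  right
  have hl : (𝓝[<] s : Filter ℝ) ≤ 𝓝[≠] s := nhdsWithin_mono s fun w hw => ne_of_lt hw
  have hr : (𝓝[>] s : Filter ℝ) ≤ 𝓝[≠] s := nhdsWithin_mono s fun w hw => ne_of_gt hw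
  rcases j_sides h hm H.hz hJ with ⟨h1, h2⟩ | ⟨h1, h2⟩
  · obtain ⟨c₁, hc₁, hs1⟩ := mem_nhdsLT_iff_exists_Ioo_subset.1 h1
    obtain ⟨c₂, hc₂, hs2⟩ := mem_nhdsGT_iff_exists_Ioo_subset.1 h2
    exact H.j_aux h hm hJ hl hr (fun p hp => exists_left h y hp) (fun p hp => exists_right h y hp)
      isOpen_Ioo isOpen_Ioo (Ioo_mem_nhdsLT hc₁) (Ioo_mem_nhdsGT hc₂) (fun w hw => hs1 hw)
      (fun w hw => hs2 hw) hcl
  · obtain ⟨c₁, hc₁, hs1⟩ := mem_nhdsLT_iff_exists_Ioo_subset.1 h1
    obtain ⟨c₂, hc₂, hs2⟩ := mem_nhdsGT_iff_exists_Ioo_subset.1 h2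
    exact H.j_aux h hm hJ hr hl (fun p hp => exists_right h y hp) (fun p hp => exists_left h y hp)
      isOpen_Ioo isOpen_Ioo (Ioo_mem_nhdsGT hc₂) (Ioo_mem_nhdsLT hc₁) (fun w hw => hs2 hw)
      (fun w hw => hs1 hw) hcl

end Vale.Agent.P032.H187
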