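import Vale.Agent.P032.H187.Product

/-!
# P032: swap rule for two points at distance one, one circle or two circles

`p`, `q` at distance one with at most three colours, `z` a centre of order at least four with
`|z - p| = 1`, not on the line `pq`.  A letter of `S(z)` at `p` is a colour outside `T z` or a pair inside
`T z`.  If the letter `l` of `S(z)` at `p` changes to `l'` and any palettes `m`, `m'` occur at `q`, then
`l` meets `m'` and `l'` meets `m` is impossible (`m` disjoint from `l`, `m'` disjoint from `l'`).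
-/

open Set Filter Topology Metric

noncomputable section

namespace Vale.Agent.P032.H187

open Vale.Agent.P032.Six Vale.Agent.P032.S5.H767

variable {k : ℕ} {U : Fin k → Set ℂ} {T : ℂ → Set (Fin k)}

/-- two points at distance one with two common colours: the third colour of `p` has its partners of
`p` on the line `pq` -/
theorem third187 (h : Irr U T) {p q : ℂ} (hpq : dist p q = 1) (h3 : (T p).ncard ≤ 3)
    (h3' : (T q).ncard ≤ 3) {s t : Fin k} (hst : s ≠ t) (hs : s ∈ T p) (ht : t ∈ T p) (hs' : s ∈ T q)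
    (ht' : t ∈ T q) : ∃ x, x ∈ T p ∧ x ∉ T q ∧ T p = {s, t, x} ∧
      ∀ v, dist p v = 1 → v ≠ q → v + q ≠ 2 * p → x ∉ Pal U v := by
  obtain ⟨x, hx, hx'⟩ := h.not_sub' hpq h3'
  have hxs : x ≠ s := fun h1 => hx' (h1 ▸ hs')
  have hxt : x ≠ t := fun h1 => hx' (h1 ▸ ht')
  have h1 : ({s, t, x} : Set (Fin k)) ⊆ T p := by
    rintro m (rfl | rfl | rfl)
    · exact hs
    · exact ht
    · exact hx
  have h2 : ({s, t, x} : Set (Fin k)).ncard = 3 :=
    Set.ncard_eq_three.2 ⟨s, t, x, hst, hxs.symm, hxt.symm, rfl⟩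
  have h4 : {s, t, x} = T p := Set.eq_of_subset_of_ncard_le h1 (by omega) (Set.toFinite _)
  have hsub : T p ⊆ insert x (T q) := by
    rw [← h4]
    rintro m (rfl | rfl | rfl)
    · exact Or.inr hs'
    · exact Or.inr ht'
    · exact Or.inl rfl
  refine ⟨x, hx, hx', h4.symm, fun v hv hvq hvq2 hxv => ?_⟩
  rcases h.lemmaX hpq h3' hsub hv hxv with h5 | h5
  · exact hvq h5
  · exact hvq2 h5

/-- a letter of `S(z)`: one colour outside `T z`, or at least two colours of `T z` -/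
def IsLt (T : ℂ → Set (Fin k)) (z : ℂ) (l : Set (Fin k)) : Prop :=
  (∃ c, c ∉ T z ∧ l = {c}) ∨ (l ⊆ T z ∧ 2 ≤ l.ncard)

/-- **Swap rule.** -/
theorem noswap187 {U : Fin 6 → Set ℂ} {T : ℂ → Set (Fin 6)} (h : Irr U T) {z p q : ℂ}
    (hpz : dist p z = 1) (hpq : dist p q = 1)
    (hzq : z ≠ q) (hzq2 : z + q ≠ 2 * p) (h4 : 4 ≤ (T z).ncard) (h3 : (T p).ncard ≤ 3)
    (h3' : (T q).ncard ≤ 3) {l l' m m' : Set (Fin 6)} (hl : l ⊆ T p) (hl' : l' ⊆ T p)
    (hm : m ⊆ T q) (hm' : m' ⊆ T q) (hL : IsLt T z l) (hL' : IsLt T z l') (hd : Disjoint l m)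
    (hd' : Disjoint l' m') (h1 : ¬ Disjoint l m') (h2 : ¬ Disjoint l' m) : False := by
  obtain ⟨s, hs, hs'⟩ := Set.not_disjoint_iff.1 h1
  obtain ⟨t, ht, ht'⟩ := Set.not_disjoint_iff.1 h2
  have hst : s ≠ t := fun hst => Set.disjoint_left.1 hd hs (hst ▸ ht')
  obtain ⟨x, hx, hx', hT, hX⟩ := third187 h hpq h3 h3' hst (hl hs) (hl' ht) (hm' hs') (hm ht')
  have hxz : x ∉ T z := fun hxz => hX z hpz hzq hzq2 (h.sub z hxz)
  -- the letters are single colours
  have key : ∀ {l l' m m' : Set (Fin 6)} {s t : Fin 6}, l ⊆ T p → IsLt T z l → Disjoint l m →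
      s ∈ l → t ∈ m → T p = {s, t, x} → s ∉ T z := by
    intro l l' m m' s t hl hL hd hs ht hT hsz
    rcases hL with ⟨c, hc, rfl⟩ | ⟨hlz, h2l⟩
    · exact hc (mem_singleton_iff.1 hs ▸ hsz)
    · have hsub : l ⊆ {s} := by
        intro m' hm'
        have h5 := hl hm'
        rw [hT] at h5
        rcases h5 with rfl | rfl | h5
        · exact rfl
        · exact absurd ht (Set.disjoint_left.1 hd hm')
        · rw [mem_singleton_iff] at h5
          exact absurd (h5 ▸ hlz hm') hxz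
      have := Set.ncard_le_ncard hsub (Set.toFinite _)
      rw [Set.ncard_singleton] at this
      omega
  have hsz : s ∉ T z := key (l' := l') (m' := m') hl hL hd hs ht' hT
  have htz : t ∉ T z := key (l' := l) (m' := m) hl' hL' hd' ht hs' (by
    rw [hT]
    ext i
    simp only [mem_insert_iff, mem_singleton_iff]
    tauto)
  have hsub : ({s, t, x} : Set (Fin 6)) ⊆ (T z)ᶜ := by
    rintro i (rfl | rfl | rfl)
    · exact hsz
    · exact htz
    · exact hxz
  have hxs : x ≠ s := fun h5 => hx' (h5 ▸ hm' hs')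
  have hxt : x ≠ t := fun h5 => hx' (h5 ▸ hm ht')
  have h5 : ({s, t, x} : Set (Fin 6)).ncard = 3 :=
    Set.ncard_eq_three.2 ⟨s, t, x, hst, hxs.symm, hxt.symm, rfl⟩
  have h6 := Set.ncard_le_ncard hsub (Set.toFinite _)
  have h7 := Set.ncard_add_ncard_compl (T z)
  rw [Nat.card_eq_fintype_card, Fintype.card_fin] at h7
  omega

/-- the swap rule on one circle: `q` is a neighbour of `p` on `S(z)` -/
theorem noswap_sixty {U : Fin 6 → Set ℂ} {T : ℂ → Set (Fin 6)} (h : Irr U T) {z p q : ℂ}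
    (hpz : dist p z = 1) (hqz : dist q z = 1) (hpq : dist p q = 1) (h4 : 4 ≤ (T z).ncard)
    (h3 : (T p).ncard ≤ 3) (h3' : (T q).ncard ≤ 3) {l l' m m' : Set (Fin 6)} (hl : l ⊆ T p)
    (hl' : l' ⊆ T p) (hm : m ⊆ T q) (hm' : m' ⊆ T q) (hL : IsLt T z l) (hL' : IsLt T z l')
    (hd : Disjoint l m) (hd' : Disjoint l' m') (h1 : ¬ Disjoint l m') (h2 : ¬ Disjoint l' m) :
    False := by
  obtain ⟨k1, k2⟩ := tri hpz hqz
  exact noswap187 h hpz hpq k1 k2 h4 h3 h3' hl hl' hm hm' hL hL' hd hd' h1 h2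

/-- the swap rule on a unit side: `|y - z| = 1`, `p` on `S(z)` and the parallel point `y + (p - z)` of
`S(y)`; only one of the two centres has order at least four -/
theorem noswap_side {U : Fin 6 → Set ℂ} {T : ℂ → Set (Fin 6)} (h : Irr U T) {z y p : ℂ}
    (hpz : dist p z = 1) (hzy : dist y z = 1) (hpy : p ≠ y) (hpy2 : p + y ≠ 2 * z)
    (h4 : 4 ≤ (T z).ncard) (h3 : (T p).ncard ≤ 3) (h3' : (T (y + (p - z))).ncard ≤ 3)
    {l l' m m' : Set (Fin 6)} (hl : l ⊆ T p)
    (hl' : l' ⊆ T p) (hm : m ⊆ T (y + (p - z))) (hm' : m' ⊆ T (y + (p - z))) (hL : IsLt T z l)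
    (hL' : IsLt T z l')
    (hd : Disjoint l m) (hd' : Disjoint l' m') (h1 : ¬ Disjoint l m') (h2 : ¬ Disjoint l' m) :
    False := by
  refine noswap187 h hpz (q := y + (p - z)) ?_ ?_ ?_ h4 h3 h3' hl hl' hm hm' hL hL' hd hd' h1 h2
  · rw [dist_eq_norm] at hzy ⊢
    rw [← hzy, ← norm_neg]; congr 1; ring
  · intro h5; exact hpy2 (by linear_combination -h5)
  · intro h5; exact hpy (by linear_combination -h5)

end Vale.Agent.P032.H187
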